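import Vale.Agent.P045.Core

/-!
A checker for certificates: nodes hold a labelled family, a small vertex set, and for every
candidate edge a reference to an earlier node whose family embeds in the extended family.
Candidate sets are computed with big natural number bit masks indexed by packed edges.
-/

namespace Vale.Agent.P045

/-- Reference to a closed family for one candidate edge. -/
structure Ref where
  g : ℕ
  child : ℕ
  s : List ℕ
  rho : List (List ℕ)

/-- A certificate node. -/
structure Node where
  F : List ℕ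
  C : List (ℕ × ℕ)
  refs : List Ref

section Defs

variable (L r : ℕ) (MT PT : ℕ → ℕ → ℕ)

/-- Mask of the packed edges meeting `a`. -/
def meetMask (a : ℕ) : ℕ := (List.range r).foldr (fun i acc => MT i (co L a i) ||| acc) 0

/-- One more than the largest label of `F` in part `i`. -/
def nOf (F : List ℕ) (i : ℕ) : ℕ := F.foldr (fun e m => max (co L e i + 1) m) 0

/-- Mask of the packed edges with all labels at most the fresh label. -/
def boxMask (F : List ℕ) : ℕ :=
  (List.range r).foldr (fun i acc => PT i (nOf L F i) &&& acc) (2 ^ (L ^ r) - 1)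

/-- Mask of the packed edges avoiding `C`. -/
def avoidMask (C : List (ℕ × ℕ)) : ℕ :=
  (2 ^ (L ^ r) - 1) ^^^ C.foldr (fun p acc => MT p.1 p.2 ||| acc) 0

/-- Inner loop of `clM`. -/
def clAux (rec : List (ℕ × ℕ) → ℕ → ℕ) : List (ℕ × ℕ) → ℕ → ℕ
  | [], _ => 2 ^ (L ^ r) - 1
  | x :: rest, acc =>
    rec (rest.filter fun b => disjB L r x.1 b.1) (acc ||| x.2) &&& clAux rec rest acc

/-- Mask of the packed edges meeting every matching of size `ν` of the list. -/
def clM : ℕ → List (ℕ × ℕ) → ℕ → ℕ
  | 0 => fun _ acc => acc
  | ν + 1 => clAux L r (clM ν)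

/-- Mask of all candidates at a node. -/
def allowed (ν : ℕ) (F : List ℕ) (C : List (ℕ × ℕ)) : ℕ :=
  boxMask L r PT F &&& avoidMask L r MT C &&& clM L r ν (F.map fun a => (a, meetMask L r MT a)) 0

/-- Mask of the listed candidates. -/
def refsMask (refs : List Ref) : ℕ := refs.foldr (fun ref acc => 2 ^ ref.g ||| acc) 0

/-- Boolean no-duplicates test. -/
def nodupB : List ℕ → Bool
  | [] => true
  | x :: xs => !xs.contains x && nodupB xs

/-- Label map lookup. -/
def rhoAt (rho : List (List ℕ)) (i l : ℕ) : ℕ := (rho.getD i []).getD l 0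

/-- Validity of a reference from family `G` to the family `F'`. -/
def mapOK (F' G : List ℕ) (s : List ℕ) (rho : List (List ℕ)) : Bool :=
  s.length == r && (List.range r).all (fun j => s.contains j) && s.all (fun x => decide (x < r)) &&
  F'.all (fun u => G.any fun w => (List.range r).all fun i =>
    co L w (s.getD i 0) == rhoAt rho i (co L u i)) &&
  (List.range r).all (fun i => nodupB (rho.getD i []) &&
    F'.all fun u => decide (co L u i < (rho.getD i []).length))

/-- The check of one node. -/
def nodeOK (ν cov : ℕ) (tbl : ℕ → Node) (id : ℕ) : Bool :=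
  let nd := tbl id
  decide (nd.C.length ≤ cov) &&
  nd.C.all (fun p => decide (p.1 < r) && decide (p.2 < nOf L nd.F p.1)) &&
  (List.range r).all (fun i => decide (nOf L nd.F i < L)) &&
  (allowed L r MT PT ν nd.F nd.C == refsMask nd.refs) &&
  nd.refs.all fun ref => decide (ref.child < id) && mapOK L r (tbl ref.child).F (ref.g :: nd.F) ref.s ref.rho

end Defs

section Lemmas

variable {L r : ℕ} {MT PT : ℕ → ℕ → ℕ}

theorem testBit_all {U t : ℕ} (ht : t < U) : (2 ^ U - 1).testBit t = true := by
  rw [Nat.testBit_two_pow_sub_one]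
  exact decide_eq_true ht

theorem testBit_foldr_or {β : Type*} (f : β → ℕ) (t : ℕ) (l : List β) :
    (l.foldr (fun x acc => f x ||| acc) 0).testBit t = true ↔ ∃ x ∈ l, (f x).testBit t = true := by
  induction l with
  | nil => simp
  | cons a l ih =>
    simp only [List.foldr_cons, Nat.testBit_or, Bool.or_eq_true, ih, List.mem_cons]
    constructor
    · rintro (h | ⟨x, hx, h⟩)
      · exact ⟨a, Or.inl rfl, h⟩
      · exact ⟨x, Or.inr hx, h⟩
    · rintro ⟨x, rfl | hx, h⟩
      · exact Or.inl h
      · exact Or.inr ⟨x, hx, h⟩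

theorem co_lt {L : ℕ} (hL : 0 < L) (e i : ℕ) : co L e i < L := Nat.mod_lt _ hL

theorem lt_nOf {L : ℕ} {F : List ℕ} {e : ℕ} (he : e ∈ F) (i : ℕ) : co L e i < nOf L F i := by
  induction F with
  | nil => simp at he
  | cons a F ih =>
    simp only [nOf, List.foldr_cons] at *
    rcases List.mem_cons.1 he with rfl | he
    · exact lt_of_lt_of_le (Nat.lt_succ_self _) (le_max_left _ _)
    · exact lt_of_lt_of_le (ih he) (le_max_right _ _)

theorem testBit_meet (hM : ∀ i < r, ∀ l < L, ∀ t < L ^ r, (MT i l).testBit t = decide (co L t i = l))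
    (hL : 0 < L) {t a : ℕ} (ht : t < L ^ r) {i : ℕ} (hi : i < r) (h : co L t i = co L a i) :
    (meetMask L r MT a).testBit t = true := by
  unfold meetMask
  rw [testBit_foldr_or]
  refine ⟨i, List.mem_range.2 hi, ?_⟩
  rw [hM i hi _ (co_lt hL a i) t ht]
  exact decide_eq_true h

theorem testBit_box (hP : ∀ i < r, ∀ n < L, ∀ t < L ^ r, (PT i n).testBit t = decide (co L t i ≤ n))
    {F : List ℕ} {t : ℕ} (ht : t < L ^ r) (hnL : ∀ i < r, nOf L F i < L)
    (h : ∀ i < r, co L t i ≤ nOf L F i) : (boxMask L r PT F).testBit t = true := by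
  unfold boxMask
  have : ∀ l : List ℕ, (∀ i ∈ l, i < r) →
      (l.foldr (fun i acc => PT i (nOf L F i) &&& acc) (2 ^ (L ^ r) - 1)).testBit t = true := by
    intro l
    induction l with
    | nil => intro _; exact testBit_all ht
    | cons a l ih =>
      intro hl
      simp only [List.foldr_cons, Nat.testBit_and, Bool.and_eq_true]
      refine ⟨?_, ih fun i hi => hl i (List.mem_cons_of_mem _ hi)⟩
      have ha : a < r := hl a (List.mem_cons_self)
      rw [hP a ha _ (hnL a ha) t ht]
      exact decide_eq_true (h a ha)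
  exact this _ fun i hi => List.mem_range.1 hi

theorem testBit_avoid (hM : ∀ i < r, ∀ l < L, ∀ t < L ^ r, (MT i l).testBit t = decide (co L t i = l))
    {C : List (ℕ × ℕ)} {t : ℕ} (ht : t < L ^ r) (hC : ∀ p ∈ C, p.1 < r ∧ p.2 < L)
    (h : ∀ p ∈ C, co L t p.1 ≠ p.2) : (avoidMask L r MT C).testBit t = true := by
  unfold avoidMask
  rw [Nat.testBit_xor, testBit_all ht]
  have : (C.foldr (fun p acc => MT p.1 p.2 ||| acc) 0).testBit t = false := by
    rw [Bool.eq_false_iff]
    intro hc
    rw [testBit_foldr_or] at hc
    obtain ⟨p, hp, hbit⟩ := hc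
    rw [hM p.1 (hC p hp).1 p.2 (hC p hp).2 t ht] at hbit
    exact h p hp (of_decide_eq_true hbit)
  rw [this]
  rfl

theorem testBit_clM {t : ℕ} (ht : t < L ^ r) : ∀ (ν : ℕ) (l : List (ℕ × ℕ)) (acc : ℕ),
    (∀ M : List (ℕ × ℕ), M.Sublist l → M.length = ν →
      M.Pairwise (fun x y => disjB L r x.1 y.1 = true) →
      acc.testBit t = true ∨ ∃ x ∈ M, x.2.testBit t = true) →
    (clM L r ν l acc).testBit t = true := by
  intro ν
  induction ν with
  | zero =>
    intro l acc h
    rcases h [] (List.nil_sublist _) rfl List.Pairwise.nil with h | ⟨x, hx, _⟩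
    · exact h
    · simp at hx
  | succ ν ih =>
    intro l
    induction l with
    | nil =>
      intro acc _
      exact testBit_all ht
    | cons x rest ihl =>
      intro acc h
      simp only [clM, clAux, Nat.testBit_and, Bool.and_eq_true]
      constructor
      · apply ih
        intro M hM hlen hpw
        have hsub : (x :: M).Sublist (x :: rest) :=
          List.Sublist.cons_cons _ (hM.trans List.filter_sublist)
        have hpw' : (x :: M).Pairwise (fun x y => disjB L r x.1 y.1 = true) := by
          refine List.pairwise_cons.2 ⟨?_, hpw⟩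
          intro y hy
          have := hM.subset hy
          simpa using (List.mem_filter.1 this).2
        rcases h _ hsub (by simp [hlen]) hpw' with h1 | ⟨y, hy, h1⟩
        · left
          simp [Nat.testBit_or, h1]
        · rcases List.mem_cons.1 hy with rfl | hy
          · left
            simp [Nat.testBit_or, h1]
          · right
            exact ⟨y, hy, h1⟩
      · have := ihl acc (fun M hM hlen hpw => h M (hM.cons _) hlen hpw)
        simpa [clM] using this

theorem mem_of_testBit_refs {refs : List Ref} {t : ℕ}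
    (h : (refsMask refs).testBit t = true) : ∃ ref ∈ refs, ref.g = t := by
  unfold refsMask at h
  rw [testBit_foldr_or] at h
  obtain ⟨ref, hr, hb⟩ := h
  refine ⟨ref, hr, ?_⟩
  rw [Nat.testBit_two_pow] at hb
  exact of_decide_eq_true hb

theorem nodupB_nodup : ∀ {l : List ℕ}, nodupB l = true → l.Nodup
  | [], _ => List.nodup_nil
  | x :: xs, h => by
    simp only [nodupB, Bool.and_eq_true, Bool.not_eq_true', List.contains_eq_mem,
      decide_eq_false_iff_not] at h
    exact List.nodup_cons.2 ⟨h.1, nodupB_nodup h.2⟩

variable {α : Type*} [DecidableEq α]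

theorem closed_of_map {ν cov : ℕ} {F' G s : List ℕ} {rho : List (List ℕ)}
    (h : mapOK L r F' G s rho = true) (hc : Closed α L r ν cov F') : Closed α L r ν cov G := by
  simp only [mapOK, Bool.and_eq_true, beq_iff_eq, List.all_eq_true, List.any_eq_true,
    List.contains_iff_mem, decide_eq_true_eq, List.mem_range] at h
  obtain ⟨⟨⟨⟨hlen, hcont⟩, hlt⟩, hmap⟩, hinj⟩ := h
  have hget : ∀ i : Fin r, s.getD i 0 ∈ s := by
    intro i
    have : (i : ℕ) < s.length := by rw [hlen]; exact i.2
    rw [List.getD_eq_getElem _ _ this]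
    exact List.getElem_mem _
  let sf : Fin r → Fin r := fun i => ⟨s.getD i 0, hlt _ (hget i)⟩
  have hsf : Function.Surjective sf := by
    intro j
    obtain ⟨k, hk, hkj⟩ := List.getElem_of_mem (hcont j j.2)
    refine ⟨⟨k, by rw [← hlen]; exact hk⟩, Fin.ext ?_⟩
    simp only [sf]
    rw [List.getD_eq_getElem _ _ hk, hkj]
  refine Closed.of_map sf hsf (fun i l => rhoAt rho i l) ?_ ?_ hc
  · intro u hu
    obtain ⟨w, hw, hww⟩ := hmap u hu
    refine ⟨w, hw, fun i => ?_⟩
    exact hww i i.2
  · intro i u hu v hv he
    have hi := hinj i i.2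
    have hnd := nodupB_nodup hi.1
    have h1 := hi.2 u hu
    have h2 := hi.2 v hv
    simp only [rhoAt] at he
    rw [List.getD_eq_getElem _ _ h1, List.getD_eq_getElem _ _ h2] at he
    exact (hnd.getElem_inj_iff).1 he

/-- Soundness of the node table. -/
theorem closed_of_nodeOK {ν cov : ℕ} {tbl : ℕ → Node} (hr : 0 < r) (hL : 0 < L)
    (hM : ∀ i < r, ∀ l < L, ∀ t < L ^ r, (MT i l).testBit t = decide (co L t i = l))
    (hP : ∀ i < r, ∀ n < L, ∀ t < L ^ r, (PT i n).testBit t = decide (co L t i ≤ n))
    {N : ℕ} (hall : ∀ id < N, nodeOK L r MT PT ν cov tbl id = true) :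
    ∀ id < N, Closed α L r ν cov (tbl id).F := by
  intro id
  induction id using Nat.strong_induction_on with
  | _ id ih =>
    intro hid
    have hok := hall id hid
    simp only [nodeOK, Bool.and_eq_true, decide_eq_true_eq, List.all_eq_true, beq_iff_eq,
      List.mem_range] at hok
    obtain ⟨⟨⟨⟨hcov, hCr⟩, hnL⟩, hmask⟩, hrefs⟩ := hok
    refine Closed.of_node hr hL (tbl id).C hcov (fun i => nOf L (tbl id).F i)
      (fun e he i => lt_nOf he i) (fun i => hnL i i.2) ?_ ?_
    · intro p hp i hpi
      have := (hCr p hp).2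
      rw [hpi] at this
      exact this
    · intro t ht hbox hav hcl
      have hbit : (allowed L r MT PT ν (tbl id).F (tbl id).C).testBit t = true := by
        unfold allowed
        simp only [Nat.testBit_and, Bool.and_eq_true]
        refine ⟨⟨?_, ?_⟩, ?_⟩
        · refine testBit_box hP ht (fun i hi => hnL i hi) (fun i hi => hbox ⟨i, hi⟩)
        · refine testBit_avoid hM ht (fun p hp => ⟨(hCr p hp).1, ?_⟩) ?_
          · exact lt_trans (hCr p hp).2 (hnL _ (hCr p hp).1)
          · intro p hp
            exact hav p hp ⟨p.1, (hCr p hp).1⟩ rfl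
        · apply testBit_clM ht
          intro M hM' hlen hpw
          right
          -- pull back to a sublist of F
          have hsub : (M.map Prod.fst).Sublist (tbl id).F := by
            have := hM'.map Prod.fst
            simpa [List.map_map, Function.comp_def] using this
          have hpw' : (M.map Prod.fst).Pairwise (fun a b => disjB L r a b = true) :=
            List.pairwise_map.2 hpw
          obtain ⟨a, ha, i, hi⟩ := hcl _ hsub (by simp [hlen]) hpw'
          obtain ⟨x, hx, rfl⟩ := List.mem_map.1 ha
          refine ⟨x, hx, ?_⟩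
          have hxmem := hM'.subset hx
          obtain ⟨b, hb, rfl⟩ := List.mem_map.1 hxmem
          exact testBit_meet hM hL ht i.2 hi
      rw [hmask] at hbit
      obtain ⟨ref, hrefm, hg⟩ := mem_of_testBit_refs hbit
      have hrc := hrefs ref hrefm
      have hclosed := ih ref.child hrc.1 (lt_trans hrc.1 hid)
      have := closed_of_map hrc.2 hclosed
      rwa [hg] at this

end Lemmas

end Vale.Agent.P045
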