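import Mathlib

/-!
Certificate semantics for covers of r-partite hypergraphs with bounded matching number.

Edges of a labelled family are packed into natural numbers in base `L`; `co L e i` is the label of
`e` in part `i`.  A family is `Closed` if no counterexample hypergraph realizes it.  The theorem
`Closed.of_map` transports closedness along part permutations and label injections, and
`Closed.of_node` is the branching rule: some edge avoids any small set of vertices.
-/

namespace Vale.Agent.P045

open Finset

/-- Coordinate `i` of the packed edge `e` in base `L`. -/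
def co (L e i : ℕ) : ℕ := e / L ^ i % L

/-- Syntactic disjointness of packed edges. -/
def disjB (L r a b : ℕ) : Bool := (List.range r).all fun i => co L a i != co L b i

variable {α : Type*} [DecidableEq α]

/-- A counterexample: matching number at most `ν`, and no cover with at most `cov` vertices. -/
structure Good (r ν cov : ℕ) (H : Finset (Fin r → α)) : Prop where
  nomatching : ∀ M : Finset (Fin r → α), M ⊆ H →
    (∀ a ∈ M, ∀ b ∈ M, a ≠ b → ∀ i, a i ≠ b i) → M.card ≤ ν
  nocover : ∀ C : Finset (Fin r × α), C.card ≤ cov → ∃ e ∈ H, ∀ i, (i, e i) ∉ C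

/-- The actual edge of a packed edge under a labelling. -/
def real (L : ℕ) {r : ℕ} (φ : Fin r → ℕ → α) (e : ℕ) : Fin r → α := fun i => φ i (co L e i)

/-- `φ` realizes the family `F` in `H`. -/
structure Realizes (L r : ℕ) (H : Finset (Fin r → α)) (φ : Fin r → ℕ → α) (F : List ℕ) : Prop where
  mem : ∀ e ∈ F, real L φ e ∈ H
  inj : ∀ i : Fin r, ∀ e ∈ F, ∀ f ∈ F, φ i (co L e i) = φ i (co L f i) → co L e i = co L f i

variable (α) in
/-- No counterexample realizes `F`. -/
def Closed (L r ν cov : ℕ) (F : List ℕ) : Prop :=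
  ∀ H : Finset (Fin r → α), Good r ν cov H → ∀ φ : Fin r → ℕ → α, Realizes L r H φ F → False

/-- A part permutation of a counterexample is a counterexample. -/
theorem Good.comp {r ν cov : ℕ} {H : Finset (Fin r → α)} (hG : Good r ν cov H)
    (s : Fin r → Fin r) (hs : Function.Surjective s) :
    Good r ν cov (H.image fun e => e ∘ s) := by
  have hinj : Function.Injective (fun e : Fin r → α => e ∘ s) := by
    intro a b hab
    funext j
    obtain ⟨i, rfl⟩ := hs j
    exact congrFun hab i
  refine ⟨?_, ?_⟩
  · intro M hM hdisj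
    classical
    let M0 := H.filter (fun e => e ∘ s ∈ M)
    have hle : M.card ≤ M0.card := by
      have hsub : M ⊆ M0.image (fun e => e ∘ s) := by
        intro x hx
        have := hM hx
        rw [Finset.mem_image] at this
        obtain ⟨e, he, rfl⟩ := this
        exact Finset.mem_image.2 ⟨e, Finset.mem_filter.2 ⟨he, hx⟩, rfl⟩
      exact (Finset.card_le_card hsub).trans Finset.card_image_le
    refine hle.trans (hG.nomatching M0 (Finset.filter_subset _ _) ?_)
    intro a ha b hb hab j
    obtain ⟨i, rfl⟩ := hs j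
    have ha' := (Finset.mem_filter.1 ha).2
    have hb' := (Finset.mem_filter.1 hb).2
    have hne : a ∘ s ≠ b ∘ s := fun h => hab (hinj h)
    exact hdisj _ ha' _ hb' hne i
  · intro C' hC'
    let C := C'.image (fun p : Fin r × α => (s p.1, p.2))
    have hC : C.card ≤ cov := Finset.card_image_le.trans hC'
    obtain ⟨e, he, hav⟩ := hG.nocover C hC
    refine ⟨e ∘ s, Finset.mem_image.2 ⟨e, he, rfl⟩, ?_⟩
    intro i hi
    exact hav (s i) (Finset.mem_image.2 ⟨(i, (e ∘ s) i), hi, rfl⟩)

/-- Transport of closedness along part maps and label injections. -/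
theorem Closed.of_map {L r ν cov : ℕ} {F' F : List ℕ}
    (s : Fin r → Fin r) (hs : Function.Surjective s) (ρ : Fin r → ℕ → ℕ)
    (hmap : ∀ u ∈ F', ∃ w ∈ F, ∀ i, co L w (s i) = ρ i (co L u i))
    (hinj : ∀ i, ∀ u ∈ F', ∀ v ∈ F', ρ i (co L u i) = ρ i (co L v i) → co L u i = co L v i)
    (h : Closed α L r ν cov F') : Closed α L r ν cov F := by
  intro H hG φ hR
  refine h _ (hG.comp s hs) (fun i l => φ (s i) (ρ i l)) ⟨?_, ?_⟩
  · intro u hu
    obtain ⟨w, hw, hww⟩ := hmap u hu
    refine Finset.mem_image.2 ⟨real L φ w, hR.mem w hw, ?_⟩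
    funext i
    simp only [real, Function.comp, hww]
  · intro i u hu v hv he
    obtain ⟨w, hw, hww⟩ := hmap u hu
    obtain ⟨w', hw', hww'⟩ := hmap v hv
    apply hinj i u hu v hv
    rw [← hww i, ← hww' i]
    apply hR.inj (s i) w hw w' hw'
    rw [hww i, hww' i]
    exact he

/-- Packing a label function into a base-`L` number. -/
def packN (L : ℕ) : ℕ → (ℕ → ℕ) → ℕ
  | 0, _ => 0
  | r + 1, l => l 0 + L * packN L r (fun k => l (k + 1))

theorem packN_lt {L : ℕ} : ∀ (r : ℕ) (l : ℕ → ℕ), (∀ k < r, l k < L) → 0 < L →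
    packN L r l < L ^ r
  | 0, _, _, _ => by simp [packN]
  | r + 1, l, h, hL => by
    have h0 := h 0 (Nat.succ_pos r)
    have ih := packN_lt r (fun k => l (k + 1)) (fun k hk => h (k + 1) (Nat.succ_lt_succ hk)) hL
    simp only [packN]
    have hmul : L * packN L r (fun k => l (k + 1)) + L ≤ L * L ^ r := by
      have : (packN L r (fun k => l (k + 1)) + 1) ≤ L ^ r := ih
      calc L * packN L r (fun k => l (k + 1)) + L
          = L * (packN L r (fun k => l (k + 1)) + 1) := by ring
        _ ≤ L * L ^ r := Nat.mul_le_mul_left L this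
    rw [pow_succ']
    omega

theorem co_packN {L : ℕ} : ∀ (r : ℕ) (l : ℕ → ℕ), (∀ k < r, l k < L) → 0 < L →
    ∀ i < r, co L (packN L r l) i = l i
  | 0, _, _, _, i, hi => absurd hi (Nat.not_lt_zero i)
  | r + 1, l, h, hL, i, hi => by
    have h0 := h 0 (Nat.succ_pos r)
    simp only [packN, co]
    cases i with
    | zero =>
      simp only [pow_zero, Nat.div_one]
      rw [Nat.add_mul_mod_self_left, Nat.mod_eq_of_lt h0]
    | succ i =>
      have ih := co_packN r (fun k => l (k + 1)) (fun k hk => h (k + 1) (Nat.succ_lt_succ hk)) hL i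
        (Nat.lt_of_succ_lt_succ hi)
      simp only [co] at ih
      rw [pow_succ', ← Nat.div_div_eq_div_mul]
      have : (l 0 + L * packN L r fun k => l (k + 1)) / L = packN L r fun k => l (k + 1) := by
        rw [Nat.add_mul_div_left _ _ hL, Nat.div_eq_of_lt h0, zero_add]
      rw [this, ih]

/-- The branching rule.  `t` ranges over packed candidate edges. -/
theorem Closed.of_node {L r ν cov : ℕ} (hr : 0 < r) (hL : 0 < L) {F : List ℕ}
    (C : List (ℕ × ℕ)) (hC : C.length ≤ cov) (n : Fin r → ℕ)
    (hn : ∀ e ∈ F, ∀ i : Fin r, co L e i < n i) (hnL : ∀ i, n i < L)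
    (hCn : ∀ p ∈ C, ∀ i : Fin r, p.1 = (i : ℕ) → p.2 < n i)
    (hcand : ∀ t, t < L ^ r → (∀ i : Fin r, co L t i ≤ n i) →
      (∀ p ∈ C, ∀ i : Fin r, p.1 = (i : ℕ) → co L t i ≠ p.2) →
      (∀ M : List ℕ, M.Sublist F → M.length = ν → M.Pairwise (fun a b => disjB L r a b = true) →
        ∃ a ∈ M, ∃ i : Fin r, co L t i = co L a i) →
      Closed α L r ν cov (t :: F)) :
    Closed α L r ν cov F := by
  classical
  intro H hG φ hR
  -- the set of vertices named by `C`
  let f : ℕ × ℕ → Option (Fin r × α) := fun p =>
    if h : p.1 < r then some (⟨p.1, h⟩, φ ⟨p.1, h⟩ p.2) else none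
  let C' : Finset (Fin r × α) := (C.filterMap f).toFinset
  have hC' : C'.card ≤ cov := by
    refine (List.toFinset_card_le _).trans (le_trans ?_ hC)
    exact List.length_filterMap_le _ _
  obtain ⟨g, hgH, hav⟩ := hG.nocover C' hC'
  -- labels of g
  let lf : Fin r → ℕ := fun i =>
    if h : ∃ e ∈ F, φ i (co L e i) = g i then co L h.choose i else n i
  have hlf_case : ∀ i, (∃ e ∈ F, lf i = co L e i ∧ φ i (co L e i) = g i) ∨
      (lf i = n i ∧ ¬ ∃ e ∈ F, φ i (co L e i) = g i) := by
    intro i
    by_cases h : ∃ e ∈ F, φ i (co L e i) = g i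
    · left
      refine ⟨h.choose, h.choose_spec.1, ?_, h.choose_spec.2⟩
      simp only [lf, dif_pos h]
    · right
      refine ⟨?_, h⟩
      simp only [lf, dif_neg h]
  have hlf_le : ∀ i, lf i ≤ n i := by
    intro i
    rcases hlf_case i with ⟨e, he, h1, _⟩ | ⟨h1, _⟩
    · rw [h1]; exact (hn e he i).le
    · exact h1.le
  let l : ℕ → ℕ := fun k => if h : k < r then lf ⟨k, h⟩ else 0
  have hl_lt : ∀ k < r, l k < L := by
    intro k hk
    simp only [l, dif_pos hk]
    exact lt_of_le_of_lt (hlf_le _) (hnL _)
  let t := packN L r l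
  have ht_lt : t < L ^ r := packN_lt r l hl_lt hL
  have hco : ∀ i : Fin r, co L t i = lf i := by
    intro i
    have := co_packN r l hl_lt hL i i.2
    simpa [t, l, i.2] using this
  -- the new labelling
  let φ' : Fin r → ℕ → α := fun i x => if x = n i then g i else φ i x
  have hφ'_old : ∀ e ∈ F, ∀ i, φ' i (co L e i) = φ i (co L e i) := by
    intro e he i
    have : co L e i ≠ n i := (hn e he i).ne
    simp only [φ', if_neg this]
  have hφ'_new : ∀ i, φ' i (lf i) = g i := by
    intro i
    rcases hlf_case i with ⟨e, he, h1, h2⟩ | ⟨h1, _⟩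
    · rw [h1, hφ'_old e he i, h2]
    · rw [h1]; simp [φ']
  have hR' : Realizes L r H φ' (t :: F) := by
    refine ⟨?_, ?_⟩
    · intro e he
      rcases List.mem_cons.1 he with rfl | he
      · have : real L φ' t = g := by
          funext i
          simp only [real, hco, hφ'_new]
        rw [this]; exact hgH
      · have : real L φ' e = real L φ e := by
          funext i
          simp only [real, hφ'_old e he]
        rw [this]; exact hR.mem e he
    · have key : ∀ i, ∀ f ∈ F, g i = φ i (co L f i) → lf i = co L f i := by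
        intro i f hf hgf
        rcases hlf_case i with ⟨e, he, h1, h2⟩ | ⟨_, h2⟩
        · rw [h1]
          exact hR.inj i e he f hf (h2.trans hgf)
        · exact absurd ⟨f, hf, hgf.symm⟩ h2
      intro i e he f hf hef
      rcases List.mem_cons.1 he with rfl | he <;> rcases List.mem_cons.1 hf with rfl | hf
      · rfl
      · rw [hco, hφ'_new, hφ'_old f hf] at *
        rw [key i f hf hef]
      · rw [hco, hφ'_new, hφ'_old e he] at *
        rw [key i e he hef.symm]
      · rw [hφ'_old e he, hφ'_old f hf] at hef
        exact hR.inj i e he f hf hef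
  refine hcand t ht_lt ?_ ?_ ?_ H hG φ' hR'
  · intro i
    rw [hco]; exact hlf_le i
  · -- avoid C
    intro p hp i hpi hcop
    rw [hco] at hcop
    rcases hlf_case i with ⟨e, he, h1, h2⟩ | ⟨h1, _⟩
    · apply hav i
      have hfp : f p = some (i, g i) := by
        have hi : p.1 < r := hpi ▸ i.2
        simp only [f, dif_pos hi]
        have hh : (⟨p.1, hi⟩ : Fin r) = i := Fin.ext hpi
        rw [hh, ← hcop, h1, h2]
      exact List.mem_toFinset.2 (List.mem_filterMap.2 ⟨p, hp, hfp⟩)
    · have := hCn p hp i hpi
      omega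
  · -- clause condition
    intro M hMF hMlen hMdisj
    by_contra hcon
    push Not at hcon
    have hcon' : ∀ a ∈ M, ∀ i : Fin r, g i ≠ φ i (co L a i) := by
      intro a ha i hga
      have haF := hMF.subset ha
      apply hcon a ha i
      rw [hco]
      rcases hlf_case i with ⟨e, he, h1, h2⟩ | ⟨_, h2⟩
      · rw [h1]
        exact hR.inj i e he a haF (h2.trans hga)
      · exact absurd ⟨a, haF, hga.symm⟩ h2
    -- real edges of M are pairwise disjoint
    have hreal_ne : ∀ a ∈ M, ∀ b ∈ M, disjB L r a b = true →
        ∀ i : Fin r, real L φ a i ≠ real L φ b i := by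
      intro a ha b hb hab i he
      have haF := hMF.subset ha
      have hbF := hMF.subset hb
      have h1 := hR.inj i a haF b hbF he
      have h2 := (List.all_eq_true.1 hab) i (List.mem_range.2 i.2)
      simp only [bne_iff_ne, ne_eq] at h2
      exact h2 h1
    have hM0 : (M.map (real L φ)).Nodup := by
      refine List.pairwise_map.2 (hMdisj.imp_of_mem ?_)
      intro a b ha hb hab he
      exact hreal_ne a ha b hb hab ⟨0, hr⟩ (congrFun he _)
    let M' : Finset (Fin r → α) := insert g (M.map (real L φ)).toFinset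
    have hgnot : g ∉ (M.map (real L φ)).toFinset := by
      intro hg
      rw [List.mem_toFinset, List.mem_map] at hg
      obtain ⟨a, ha, hag⟩ := hg
      exact hcon' a ha ⟨0, hr⟩ (by rw [← hag]; rfl)
    have hcard : M'.card = ν + 1 := by
      rw [Finset.card_insert_of_notMem hgnot, List.toFinset_card_of_nodup hM0, List.length_map,
        hMlen]
    have hsub : M' ⊆ H := by
      intro x hx
      rcases Finset.mem_insert.1 hx with rfl | hx
      · exact hgH
      · rw [List.mem_toFinset, List.mem_map] at hx
        obtain ⟨a, ha, rfl⟩ := hx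
        exact hR.mem a (hMF.subset ha)
    haveI hsymm : Std.Symm (fun a b => disjB L r a b = true) := ⟨by
      intro a b hab
      refine List.all_eq_true.2 ?_
      intro i hi
      have h2 := (List.all_eq_true.1 hab) i hi
      simp only [bne_iff_ne, ne_eq] at h2 ⊢
      exact fun h => h2 h.symm⟩
    have hpair : ∀ a ∈ M', ∀ b ∈ M', a ≠ b → ∀ i, a i ≠ b i := by
      intro a ha b hb hne i
      have ha1 := Finset.mem_insert.1 ha
      have hb1 := Finset.mem_insert.1 hb
      rcases ha1 with ha2 | ha2
      · rcases hb1 with hb2 | hb2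
        · exact absurd (ha2.trans hb2.symm) hne
        · rw [List.mem_toFinset, List.mem_map] at hb2
          obtain ⟨y, hy, rfl⟩ := hb2
          rw [ha2]
          exact hcon' y hy i
      · rw [List.mem_toFinset, List.mem_map] at ha2
        obtain ⟨y, hy, rfl⟩ := ha2
        rcases hb1 with hb2 | hb2
        · rw [hb2]
          exact fun h => hcon' y hy i h.symm
        · rw [List.mem_toFinset, List.mem_map] at hb2
          obtain ⟨z, hz, rfl⟩ := hb2
          have hyz : y ≠ z := fun h => hne (by rw [h])
          exact hreal_ne y hy z hz (hMdisj.forall hy hz hyz) i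
    have := hG.nomatching M' hsub hpair
    omega

end Vale.Agent.P045
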