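import Vale.Agent.P045.R4N2Data

/-! Kernel check of a range of certificate nodes. -/

namespace Vale.Agent.P045.R4N2

open Vale.Agent.P045

theorem part0_0 : (List.range' 0 16).all (nodeOK 9 4 MT PT 2 6 tbl) = true := by
  decide +kernel

theorem part0_1 : (List.range' 16 16).all (nodeOK 9 4 MT PT 2 6 tbl) = true := by
  decide +kernel

theorem part0_2 : (List.range' 32 16).all (nodeOK 9 4 MT PT 2 6 tbl) = true := by
  decide +kernel

theorem part0_3 : (List.range' 48 16).all (nodeOK 9 4 MT PT 2 6 tbl) = true := by
  decide +kernel

theorem part0_4 : (List.range' 64 16).all (nodeOK 9 4 MT PT 2 6 tbl) = true := by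
  decide +kernel

theorem part0_5 : (List.range' 80 16).all (nodeOK 9 4 MT PT 2 6 tbl) = true := by
  decide +kernel

theorem part0_6 : (List.range' 96 16).all (nodeOK 9 4 MT PT 2 6 tbl) = true := by
  decide +kernel

theorem part0_7 : (List.range' 112 16).all (nodeOK 9 4 MT PT 2 6 tbl) = true := by
  decide +kernel

theorem part0_8 : (List.range' 128 16).all (nodeOK 9 4 MT PT 2 6 tbl) = true := by
  decide +kernel

theorem part0_9 : (List.range' 144 16).all (nodeOK 9 4 MT PT 2 6 tbl) = true := by
  decide +kernel

theorem part0_10 : (List.range' 160 16).all (nodeOK 9 4 MT PT 2 6 tbl) = true := by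
  decide +kernel

theorem part0_11 : (List.range' 176 16).all (nodeOK 9 4 MT PT 2 6 tbl) = true := by
  decide +kernel

theorem part0_12 : (List.range' 192 16).all (nodeOK 9 4 MT PT 2 6 tbl) = true := by
  decide +kernel

theorem part0_13 : (List.range' 208 16).all (nodeOK 9 4 MT PT 2 6 tbl) = true := by
  decide +kernel

theorem part0_14 : (List.range' 224 16).all (nodeOK 9 4 MT PT 2 6 tbl) = true := by
  decide +kernel

theorem part0_15 : (List.range' 240 16).all (nodeOK 9 4 MT PT 2 6 tbl) = true := by
  decide +kernel

theorem part0_16 : (List.range' 256 16).all (nodeOK 9 4 MT PT 2 6 tbl) = true := by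
  decide +kernel

theorem part0_17 : (List.range' 272 16).all (nodeOK 9 4 MT PT 2 6 tbl) = true := by
  decide +kernel

theorem part0_18 : (List.range' 288 16).all (nodeOK 9 4 MT PT 2 6 tbl) = true := by
  decide +kernel

theorem part0_19 : (List.range' 304 16).all (nodeOK 9 4 MT PT 2 6 tbl) = true := by
  decide +kernel

theorem part0_20 : (List.range' 320 16).all (nodeOK 9 4 MT PT 2 6 tbl) = true := by
  decide +kernel

theorem part0_21 : (List.range' 336 16).all (nodeOK 9 4 MT PT 2 6 tbl) = true := by
  decide +kernel

theorem part0_22 : (List.range' 352 16).all (nodeOK 9 4 MT PT 2 6 tbl) = true := by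
  decide +kernel

theorem part0_23 : (List.range' 368 16).all (nodeOK 9 4 MT PT 2 6 tbl) = true := by
  decide +kernel

theorem part0_24 : (List.range' 384 16).all (nodeOK 9 4 MT PT 2 6 tbl) = true := by
  decide +kernel

theorem part0_25 : (List.range' 400 16).all (nodeOK 9 4 MT PT 2 6 tbl) = true := by
  decide +kernel

theorem part0_26 : (List.range' 416 16).all (nodeOK 9 4 MT PT 2 6 tbl) = true := by
  decide +kernel

theorem part0_27 : (List.range' 432 16).all (nodeOK 9 4 MT PT 2 6 tbl) = true := by
  decide +kernel

theorem part0_28 : (List.range' 448 16).all (nodeOK 9 4 MT PT 2 6 tbl) = true := by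
  decide +kernel

theorem part0_29 : (List.range' 464 16).all (nodeOK 9 4 MT PT 2 6 tbl) = true := by
  decide +kernel

theorem part0_30 : (List.range' 480 16).all (nodeOK 9 4 MT PT 2 6 tbl) = true := by
  decide +kernel

theorem part0_31 : (List.range' 496 9).all (nodeOK 9 4 MT PT 2 6 tbl) = true := by
  decide +kernel

theorem part0 (id : ℕ) (h1 : 0 ≤ id) (h2 : id < 505) : nodeOK 9 4 MT PT 2 6 tbl id = true := by
  by_cases h0 : id < 16
  · have := part0_0
    simp only [List.all_eq_true, List.mem_range'_1] at this
    exact this id (by omega)
  by_cases h1 : id < 32
  · have := part0_1
    simp only [List.all_eq_true, List.mem_range'_1] at this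
    exact this id (by omega)
  by_cases h2 : id < 48
  · have := part0_2
    simp only [List.all_eq_true, List.mem_range'_1] at this
    exact this id (by omega)
  by_cases h3 : id < 64
  · have := part0_3
    simp only [List.all_eq_true, List.mem_range'_1] at this
    exact this id (by omega)
  by_cases h4 : id < 80
  · have := part0_4
    simp only [List.all_eq_true, List.mem_range'_1] at this
    exact this id (by omega)
  by_cases h5 : id < 96
  · have := part0_5
    simp only [List.all_eq_true, List.mem_range'_1] at this
    exact this id (by omega)
  by_cases h6 : id < 112
  · have := part0_6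
    simp only [List.all_eq_true, List.mem_range'_1] at this
    exact this id (by omega)
  by_cases h7 : id < 128
  · have := part0_7
    simp only [List.all_eq_true, List.mem_range'_1] at this
    exact this id (by omega)
  by_cases h8 : id < 144
  · have := part0_8
    simp only [List.all_eq_true, List.mem_range'_1] at this
    exact this id (by omega)
  by_cases h9 : id < 160
  · have := part0_9
    simp only [List.all_eq_true, List.mem_range'_1] at this
    exact this id (by omega)
  by_cases h10 : id < 176
  · have := part0_10
    simp only [List.all_eq_true, List.mem_range'_1] at this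
    exact this id (by omega)
  by_cases h11 : id < 192
  · have := part0_11
    simp only [List.all_eq_true, List.mem_range'_1] at this
    exact this id (by omega)
  by_cases h12 : id < 208
  · have := part0_12
    simp only [List.all_eq_true, List.mem_range'_1] at this
    exact this id (by omega)
  by_cases h13 : id < 224
  · have := part0_13
    simp only [List.all_eq_true, List.mem_range'_1] at this
    exact this id (by omega)
  by_cases h14 : id < 240
  · have := part0_14
    simp only [List.all_eq_true, List.mem_range'_1] at this
    exact this id (by omega)
  by_cases h15 : id < 256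
  · have := part0_15
    simp only [List.all_eq_true, List.mem_range'_1] at this
    exact this id (by omega)
  by_cases h16 : id < 272
  · have := part0_16
    simp only [List.all_eq_true, List.mem_range'_1] at this
    exact this id (by omega)
  by_cases h17 : id < 288
  · have := part0_17
    simp only [List.all_eq_true, List.mem_range'_1] at this
    exact this id (by omega)
  by_cases h18 : id < 304
  · have := part0_18
    simp only [List.all_eq_true, List.mem_range'_1] at this
    exact this id (by omega)
  by_cases h19 : id < 320
  · have := part0_19
    simp only [List.all_eq_true, List.mem_range'_1] at this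
    exact this id (by omega)
  by_cases h20 : id < 336
  · have := part0_20
    simp only [List.all_eq_true, List.mem_range'_1] at this
    exact this id (by omega)
  by_cases h21 : id < 352
  · have := part0_21
    simp only [List.all_eq_true, List.mem_range'_1] at this
    exact this id (by omega)
  by_cases h22 : id < 368
  · have := part0_22
    simp only [List.all_eq_true, List.mem_range'_1] at this
    exact this id (by omega)
  by_cases h23 : id < 384
  · have := part0_23
    simp only [List.all_eq_true, List.mem_range'_1] at this
    exact this id (by omega)
  by_cases h24 : id < 400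
  · have := part0_24
    simp only [List.all_eq_true, List.mem_range'_1] at this
    exact this id (by omega)
  by_cases h25 : id < 416
  · have := part0_25
    simp only [List.all_eq_true, List.mem_range'_1] at this
    exact this id (by omega)
  by_cases h26 : id < 432
  · have := part0_26
    simp only [List.all_eq_true, List.mem_range'_1] at this
    exact this id (by omega)
  by_cases h27 : id < 448
  · have := part0_27
    simp only [List.all_eq_true, List.mem_range'_1] at this
    exact this id (by omega)
  by_cases h28 : id < 464
  · have := part0_28
    simp only [List.all_eq_true, List.mem_range'_1] at this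
    exact this id (by omega)
  by_cases h29 : id < 480
  · have := part0_29
    simp only [List.all_eq_true, List.mem_range'_1] at this
    exact this id (by omega)
  by_cases h30 : id < 496
  · have := part0_30
    simp only [List.all_eq_true, List.mem_range'_1] at this
    exact this id (by omega)
  by_cases h31 : id < 505
  · have := part0_31
    simp only [List.all_eq_true, List.mem_range'_1] at this
    exact this id (by omega)
  omega

end Vale.Agent.P045.R4N2
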