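import Vale.Agent.P045.R4N2Data

/-! Kernel check of a range of certificate nodes. -/

namespace Vale.Agent.P045.R4N2

open Vale.Agent.P045

theorem part1_0 : (List.range' 505 16).all (nodeOK 9 4 MT PT 2 6 tbl) = true := by
  decide +kernel

theorem part1_1 : (List.range' 521 16).all (nodeOK 9 4 MT PT 2 6 tbl) = true := by
  decide +kernel

theorem part1_2 : (List.range' 537 16).all (nodeOK 9 4 MT PT 2 6 tbl) = true := by
  decide +kernel

theorem part1_3 : (List.range' 553 16).all (nodeOK 9 4 MT PT 2 6 tbl) = true := by
  decide +kernel

theorem part1_4 : (List.range' 569 16).all (nodeOK 9 4 MT PT 2 6 tbl) = true := by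
  decide +kernel

theorem part1_5 : (List.range' 585 16).all (nodeOK 9 4 MT PT 2 6 tbl) = true := by
  decide +kernel

theorem part1_6 : (List.range' 601 16).all (nodeOK 9 4 MT PT 2 6 tbl) = true := by
  decide +kernel

theorem part1_7 : (List.range' 617 16).all (nodeOK 9 4 MT PT 2 6 tbl) = true := by
  decide +kernel

theorem part1_8 : (List.range' 633 16).all (nodeOK 9 4 MT PT 2 6 tbl) = true := by
  decide +kernel

theorem part1_9 : (List.range' 649 16).all (nodeOK 9 4 MT PT 2 6 tbl) = true := by
  decide +kernel

theorem part1_10 : (List.range' 665 16).all (nodeOK 9 4 MT PT 2 6 tbl) = true := by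
  decide +kernel

theorem part1_11 : (List.range' 681 16).all (nodeOK 9 4 MT PT 2 6 tbl) = true := by
  decide +kernel

theorem part1_12 : (List.range' 697 16).all (nodeOK 9 4 MT PT 2 6 tbl) = true := by
  decide +kernel

theorem part1_13 : (List.range' 713 16).all (nodeOK 9 4 MT PT 2 6 tbl) = true := by
  decide +kernel

theorem part1_14 : (List.range' 729 16).all (nodeOK 9 4 MT PT 2 6 tbl) = true := by
  decide +kernel

theorem part1_15 : (List.range' 745 16).all (nodeOK 9 4 MT PT 2 6 tbl) = true := by
  decide +kernel

theorem part1_16 : (List.range' 761 16).all (nodeOK 9 4 MT PT 2 6 tbl) = true := by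
  decide +kernel

theorem part1_17 : (List.range' 777 16).all (nodeOK 9 4 MT PT 2 6 tbl) = true := by
  decide +kernel

theorem part1_18 : (List.range' 793 16).all (nodeOK 9 4 MT PT 2 6 tbl) = true := by
  decide +kernel

theorem part1_19 : (List.range' 809 16).all (nodeOK 9 4 MT PT 2 6 tbl) = true := by
  decide +kernel

theorem part1_20 : (List.range' 825 16).all (nodeOK 9 4 MT PT 2 6 tbl) = true := by
  decide +kernel

theorem part1_21 : (List.range' 841 16).all (nodeOK 9 4 MT PT 2 6 tbl) = true := by
  decide +kernel

theorem part1_22 : (List.range' 857 16).all (nodeOK 9 4 MT PT 2 6 tbl) = true := by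
  decide +kernel

theorem part1_23 : (List.range' 873 16).all (nodeOK 9 4 MT PT 2 6 tbl) = true := by
  decide +kernel

theorem part1_24 : (List.range' 889 16).all (nodeOK 9 4 MT PT 2 6 tbl) = true := by
  decide +kernel

theorem part1_25 : (List.range' 905 16).all (nodeOK 9 4 MT PT 2 6 tbl) = true := by
  decide +kernel

theorem part1_26 : (List.range' 921 16).all (nodeOK 9 4 MT PT 2 6 tbl) = true := by
  decide +kernel

theorem part1_27 : (List.range' 937 16).all (nodeOK 9 4 MT PT 2 6 tbl) = true := by
  decide +kernel

theorem part1_28 : (List.range' 953 16).all (nodeOK 9 4 MT PT 2 6 tbl) = true := by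
  decide +kernel

theorem part1_29 : (List.range' 969 16).all (nodeOK 9 4 MT PT 2 6 tbl) = true := by
  decide +kernel

theorem part1_30 : (List.range' 985 16).all (nodeOK 9 4 MT PT 2 6 tbl) = true := by
  decide +kernel

theorem part1_31 : (List.range' 1001 9).all (nodeOK 9 4 MT PT 2 6 tbl) = true := by
  decide +kernel

theorem part1 (id : ℕ) (h1 : 505 ≤ id) (h2 : id < 1010) : nodeOK 9 4 MT PT 2 6 tbl id = true := by
  by_cases h0 : id < 521
  · have := part1_0
    simp only [List.all_eq_true, List.mem_range'_1] at this
    exact this id (by omega)
  by_cases h1 : id < 537
  · have := part1_1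
    simp only [List.all_eq_true, List.mem_range'_1] at this
    exact this id (by omega)
  by_cases h2 : id < 553
  · have := part1_2
    simp only [List.all_eq_true, List.mem_range'_1] at this
    exact this id (by omega)
  by_cases h3 : id < 569
  · have := part1_3
    simp only [List.all_eq_true, List.mem_range'_1] at this
    exact this id (by omega)
  by_cases h4 : id < 585
  · have := part1_4
    simp only [List.all_eq_true, List.mem_range'_1] at this
    exact this id (by omega)
  by_cases h5 : id < 601
  · have := part1_5
    simp only [List.all_eq_true, List.mem_range'_1] at this
    exact this id (by omega)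
  by_cases h6 : id < 617
  · have := part1_6
    simp only [List.all_eq_true, List.mem_range'_1] at this
    exact this id (by omega)
  by_cases h7 : id < 633
  · have := part1_7
    simp only [List.all_eq_true, List.mem_range'_1] at this
    exact this id (by omega)
  by_cases h8 : id < 649
  · have := part1_8
    simp only [List.all_eq_true, List.mem_range'_1] at this
    exact this id (by omega)
  by_cases h9 : id < 665
  · have := part1_9
    simp only [List.all_eq_true, List.mem_range'_1] at this
    exact this id (by omega)
  by_cases h10 : id < 681
  · have := part1_10
    simp only [List.all_eq_true, List.mem_range'_1] at this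
    exact this id (by omega)
  by_cases h11 : id < 697
  · have := part1_11
    simp only [List.all_eq_true, List.mem_range'_1] at this
    exact this id (by omega)
  by_cases h12 : id < 713
  · have := part1_12
    simp only [List.all_eq_true, List.mem_range'_1] at this
    exact this id (by omega)
  by_cases h13 : id < 729
  · have := part1_13
    simp only [List.all_eq_true, List.mem_range'_1] at this
    exact this id (by omega)
  by_cases h14 : id < 745
  · have := part1_14
    simp only [List.all_eq_true, List.mem_range'_1] at this
    exact this id (by omega)
  by_cases h15 : id < 761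
  · have := part1_15
    simp only [List.all_eq_true, List.mem_range'_1] at this
    exact this id (by omega)
  by_cases h16 : id < 777
  · have := part1_16
    simp only [List.all_eq_true, List.mem_range'_1] at this
    exact this id (by omega)
  by_cases h17 : id < 793
  · have := part1_17
    simp only [List.all_eq_true, List.mem_range'_1] at this
    exact this id (by omega)
  by_cases h18 : id < 809
  · have := part1_18
    simp only [List.all_eq_true, List.mem_range'_1] at this
    exact this id (by omega)
  by_cases h19 : id < 825
  · have := part1_19
    simp only [List.all_eq_true, List.mem_range'_1] at this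
    exact this id (by omega)
  by_cases h20 : id < 841
  · have := part1_20
    simp only [List.all_eq_true, List.mem_range'_1] at this
    exact this id (by omega)
  by_cases h21 : id < 857
  · have := part1_21
    simp only [List.all_eq_true, List.mem_range'_1] at this
    exact this id (by omega)
  by_cases h22 : id < 873
  · have := part1_22
    simp only [List.all_eq_true, List.mem_range'_1] at this
    exact this id (by omega)
  by_cases h23 : id < 889
  · have := part1_23
    simp only [List.all_eq_true, List.mem_range'_1] at this
    exact this id (by omega)
  by_cases h24 : id < 905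
  · have := part1_24
    simp only [List.all_eq_true, List.mem_range'_1] at this
    exact this id (by omega)
  by_cases h25 : id < 921
  · have := part1_25
    simp only [List.all_eq_true, List.mem_range'_1] at this
    exact this id (by omega)
  by_cases h26 : id < 937
  · have := part1_26
    simp only [List.all_eq_true, List.mem_range'_1] at this
    exact this id (by omega)
  by_cases h27 : id < 953
  · have := part1_27
    simp only [List.all_eq_true, List.mem_range'_1] at this
    exact this id (by omega)
  by_cases h28 : id < 969
  · have := part1_28
    simp only [List.all_eq_true, List.mem_range'_1] at this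
    exact this id (by omega)
  by_cases h29 : id < 985
  · have := part1_29
    simp only [List.all_eq_true, List.mem_range'_1] at this
    exact this id (by omega)
  by_cases h30 : id < 1001
  · have := part1_30
    simp only [List.all_eq_true, List.mem_range'_1] at this
    exact this id (by omega)
  by_cases h31 : id < 1010
  · have := part1_31
    simp only [List.all_eq_true, List.mem_range'_1] at this
    exact this id (by omega)
  omega

end Vale.Agent.P045.R4N2
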