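import Vale.Agent.P045.R4N2Data

/-! Kernel check of a range of certificate nodes. -/

namespace Vale.Agent.P045.R4N2

open Vale.Agent.P045

theorem part2_0 : (List.range' 1010 16).all (nodeOK 9 4 MT PT 2 6 tbl) = true := by
  decide +kernel

theorem part2_1 : (List.range' 1026 16).all (nodeOK 9 4 MT PT 2 6 tbl) = true := by
  decide +kernel

theorem part2_2 : (List.range' 1042 16).all (nodeOK 9 4 MT PT 2 6 tbl) = true := by
  decide +kernel

theorem part2_3 : (List.range' 1058 16).all (nodeOK 9 4 MT PT 2 6 tbl) = true := by
  decide +kernel

theorem part2_4 : (List.range' 1074 16).all (nodeOK 9 4 MT PT 2 6 tbl) = true := by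
  decide +kernel

theorem part2_5 : (List.range' 1090 16).all (nodeOK 9 4 MT PT 2 6 tbl) = true := by
  decide +kernel

theorem part2_6 : (List.range' 1106 16).all (nodeOK 9 4 MT PT 2 6 tbl) = true := by
  decide +kernel

theorem part2_7 : (List.range' 1122 16).all (nodeOK 9 4 MT PT 2 6 tbl) = true := by
  decide +kernel

theorem part2_8 : (List.range' 1138 16).all (nodeOK 9 4 MT PT 2 6 tbl) = true := by
  decide +kernel

theorem part2_9 : (List.range' 1154 16).all (nodeOK 9 4 MT PT 2 6 tbl) = true := by
  decide +kernel

theorem part2_10 : (List.range' 1170 16).all (nodeOK 9 4 MT PT 2 6 tbl) = true := by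
  decide +kernel

theorem part2_11 : (List.range' 1186 16).all (nodeOK 9 4 MT PT 2 6 tbl) = true := by
  decide +kernel

theorem part2_12 : (List.range' 1202 16).all (nodeOK 9 4 MT PT 2 6 tbl) = true := by
  decide +kernel

theorem part2_13 : (List.range' 1218 16).all (nodeOK 9 4 MT PT 2 6 tbl) = true := by
  decide +kernel

theorem part2_14 : (List.range' 1234 16).all (nodeOK 9 4 MT PT 2 6 tbl) = true := by
  decide +kernel

theorem part2_15 : (List.range' 1250 16).all (nodeOK 9 4 MT PT 2 6 tbl) = true := by
  decide +kernel

theorem part2_16 : (List.range' 1266 16).all (nodeOK 9 4 MT PT 2 6 tbl) = true := by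
  decide +kernel

theorem part2_17 : (List.range' 1282 16).all (nodeOK 9 4 MT PT 2 6 tbl) = true := by
  decide +kernel

theorem part2_18 : (List.range' 1298 16).all (nodeOK 9 4 MT PT 2 6 tbl) = true := by
  decide +kernel

theorem part2_19 : (List.range' 1314 16).all (nodeOK 9 4 MT PT 2 6 tbl) = true := by
  decide +kernel

theorem part2_20 : (List.range' 1330 16).all (nodeOK 9 4 MT PT 2 6 tbl) = true := by
  decide +kernel

theorem part2_21 : (List.range' 1346 16).all (nodeOK 9 4 MT PT 2 6 tbl) = true := by
  decide +kernel

theorem part2_22 : (List.range' 1362 16).all (nodeOK 9 4 MT PT 2 6 tbl) = true := by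
  decide +kernel

theorem part2_23 : (List.range' 1378 16).all (nodeOK 9 4 MT PT 2 6 tbl) = true := by
  decide +kernel

theorem part2_24 : (List.range' 1394 16).all (nodeOK 9 4 MT PT 2 6 tbl) = true := by
  decide +kernel

theorem part2_25 : (List.range' 1410 16).all (nodeOK 9 4 MT PT 2 6 tbl) = true := by
  decide +kernel

theorem part2_26 : (List.range' 1426 16).all (nodeOK 9 4 MT PT 2 6 tbl) = true := by
  decide +kernel

theorem part2_27 : (List.range' 1442 16).all (nodeOK 9 4 MT PT 2 6 tbl) = true := by
  decide +kernel

theorem part2_28 : (List.range' 1458 16).all (nodeOK 9 4 MT PT 2 6 tbl) = true := by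
  decide +kernel

theorem part2_29 : (List.range' 1474 16).all (nodeOK 9 4 MT PT 2 6 tbl) = true := by
  decide +kernel

theorem part2_30 : (List.range' 1490 16).all (nodeOK 9 4 MT PT 2 6 tbl) = true := by
  decide +kernel

theorem part2_31 : (List.range' 1506 9).all (nodeOK 9 4 MT PT 2 6 tbl) = true := by
  decide +kernel

theorem part2 (id : ℕ) (h1 : 1010 ≤ id) (h2 : id < 1515) : nodeOK 9 4 MT PT 2 6 tbl id = true := by
  by_cases h0 : id < 1026
  · have := part2_0
    simp only [List.all_eq_true, List.mem_range'_1] at this
    exact this id (by omega)
  by_cases h1 : id < 1042
  · have := part2_1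
    simp only [List.all_eq_true, List.mem_range'_1] at this
    exact this id (by omega)
  by_cases h2 : id < 1058
  · have := part2_2
    simp only [List.all_eq_true, List.mem_range'_1] at this
    exact this id (by omega)
  by_cases h3 : id < 1074
  · have := part2_3
    simp only [List.all_eq_true, List.mem_range'_1] at this
    exact this id (by omega)
  by_cases h4 : id < 1090
  · have := part2_4
    simp only [List.all_eq_true, List.mem_range'_1] at this
    exact this id (by omega)
  by_cases h5 : id < 1106
  · have := part2_5
    simp only [List.all_eq_true, List.mem_range'_1] at this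
    exact this id (by omega)
  by_cases h6 : id < 1122
  · have := part2_6
    simp only [List.all_eq_true, List.mem_range'_1] at this
    exact this id (by omega)
  by_cases h7 : id < 1138
  · have := part2_7
    simp only [List.all_eq_true, List.mem_range'_1] at this
    exact this id (by omega)
  by_cases h8 : id < 1154
  · have := part2_8
    simp only [List.all_eq_true, List.mem_range'_1] at this
    exact this id (by omega)
  by_cases h9 : id < 1170
  · have := part2_9
    simp only [List.all_eq_true, List.mem_range'_1] at this
    exact this id (by omega)
  by_cases h10 : id < 1186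
  · have := part2_10
    simp only [List.all_eq_true, List.mem_range'_1] at this
    exact this id (by omega)
  by_cases h11 : id < 1202
  · have := part2_11
    simp only [List.all_eq_true, List.mem_range'_1] at this
    exact this id (by omega)
  by_cases h12 : id < 1218
  · have := part2_12
    simp only [List.all_eq_true, List.mem_range'_1] at this
    exact this id (by omega)
  by_cases h13 : id < 1234
  · have := part2_13
    simp only [List.all_eq_true, List.mem_range'_1] at this
    exact this id (by omega)
  by_cases h14 : id < 1250
  · have := part2_14
    simp only [List.all_eq_true, List.mem_range'_1] at this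
    exact this id (by omega)
  by_cases h15 : id < 1266
  · have := part2_15
    simp only [List.all_eq_true, List.mem_range'_1] at this
    exact this id (by omega)
  by_cases h16 : id < 1282
  · have := part2_16
    simp only [List.all_eq_true, List.mem_range'_1] at this
    exact this id (by omega)
  by_cases h17 : id < 1298
  · have := part2_17
    simp only [List.all_eq_true, List.mem_range'_1] at this
    exact this id (by omega)
  by_cases h18 : id < 1314
  · have := part2_18
    simp only [List.all_eq_true, List.mem_range'_1] at this
    exact this id (by omega)
  by_cases h19 : id < 1330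
  · have := part2_19
    simp only [List.all_eq_true, List.mem_range'_1] at this
    exact this id (by omega)
  by_cases h20 : id < 1346
  · have := part2_20
    simp only [List.all_eq_true, List.mem_range'_1] at this
    exact this id (by omega)
  by_cases h21 : id < 1362
  · have := part2_21
    simp only [List.all_eq_true, List.mem_range'_1] at this
    exact this id (by omega)
  by_cases h22 : id < 1378
  · have := part2_22
    simp only [List.all_eq_true, List.mem_range'_1] at this
    exact this id (by omega)
  by_cases h23 : id < 1394
  · have := part2_23
    simp only [List.all_eq_true, List.mem_range'_1] at this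
    exact this id (by omega)
  by_cases h24 : id < 1410
  · have := part2_24
    simp only [List.all_eq_true, List.mem_range'_1] at this
    exact this id (by omega)
  by_cases h25 : id < 1426
  · have := part2_25
    simp only [List.all_eq_true, List.mem_range'_1] at this
    exact this id (by omega)
  by_cases h26 : id < 1442
  · have := part2_26
    simp only [List.all_eq_true, List.mem_range'_1] at this
    exact this id (by omega)
  by_cases h27 : id < 1458
  · have := part2_27
    simp only [List.all_eq_true, List.mem_range'_1] at this
    exact this id (by omega)
  by_cases h28 : id < 1474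
  · have := part2_28
    simp only [List.all_eq_true, List.mem_range'_1] at this
    exact this id (by omega)
  by_cases h29 : id < 1490
  · have := part2_29
    simp only [List.all_eq_true, List.mem_range'_1] at this
    exact this id (by omega)
  by_cases h30 : id < 1506
  · have := part2_30
    simp only [List.all_eq_true, List.mem_range'_1] at this
    exact this id (by omega)
  by_cases h31 : id < 1515
  · have := part2_31
    simp only [List.all_eq_true, List.mem_range'_1] at this
    exact this id (by omega)
  omega

end Vale.Agent.P045.R4N2
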