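import Vale.Agent.P045.R4N2Data

/-! Kernel check of a range of certificate nodes. -/

namespace Vale.Agent.P045.R4N2

open Vale.Agent.P045

theorem part3_0 : (List.range' 1515 16).all (nodeOK 9 4 MT PT 2 6 tbl) = true := by
  decide +kernel

theorem part3_1 : (List.range' 1531 16).all (nodeOK 9 4 MT PT 2 6 tbl) = true := by
  decide +kernel

theorem part3_2 : (List.range' 1547 16).all (nodeOK 9 4 MT PT 2 6 tbl) = true := by
  decide +kernel

theorem part3_3 : (List.range' 1563 16).all (nodeOK 9 4 MT PT 2 6 tbl) = true := by
  decide +kernel

theorem part3_4 : (List.range' 1579 16).all (nodeOK 9 4 MT PT 2 6 tbl) = true := by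
  decide +kernel

theorem part3_5 : (List.range' 1595 16).all (nodeOK 9 4 MT PT 2 6 tbl) = true := by
  decide +kernel

theorem part3_6 : (List.range' 1611 16).all (nodeOK 9 4 MT PT 2 6 tbl) = true := by
  decide +kernel

theorem part3_7 : (List.range' 1627 16).all (nodeOK 9 4 MT PT 2 6 tbl) = true := by
  decide +kernel

theorem part3_8 : (List.range' 1643 16).all (nodeOK 9 4 MT PT 2 6 tbl) = true := by
  decide +kernel

theorem part3_9 : (List.range' 1659 16).all (nodeOK 9 4 MT PT 2 6 tbl) = true := by
  decide +kernel

theorem part3_10 : (List.range' 1675 16).all (nodeOK 9 4 MT PT 2 6 tbl) = true := by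
  decide +kernel

theorem part3_11 : (List.range' 1691 16).all (nodeOK 9 4 MT PT 2 6 tbl) = true := by
  decide +kernel

theorem part3_12 : (List.range' 1707 16).all (nodeOK 9 4 MT PT 2 6 tbl) = true := by
  decide +kernel

theorem part3_13 : (List.range' 1723 16).all (nodeOK 9 4 MT PT 2 6 tbl) = true := by
  decide +kernel

theorem part3_14 : (List.range' 1739 16).all (nodeOK 9 4 MT PT 2 6 tbl) = true := by
  decide +kernel

theorem part3_15 : (List.range' 1755 16).all (nodeOK 9 4 MT PT 2 6 tbl) = true := by
  decide +kernel

theorem part3_16 : (List.range' 1771 16).all (nodeOK 9 4 MT PT 2 6 tbl) = true := by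
  decide +kernel

theorem part3_17 : (List.range' 1787 16).all (nodeOK 9 4 MT PT 2 6 tbl) = true := by
  decide +kernel

theorem part3_18 : (List.range' 1803 16).all (nodeOK 9 4 MT PT 2 6 tbl) = true := by
  decide +kernel

theorem part3_19 : (List.range' 1819 16).all (nodeOK 9 4 MT PT 2 6 tbl) = true := by
  decide +kernel

theorem part3_20 : (List.range' 1835 16).all (nodeOK 9 4 MT PT 2 6 tbl) = true := by
  decide +kernel

theorem part3_21 : (List.range' 1851 16).all (nodeOK 9 4 MT PT 2 6 tbl) = true := by
  decide +kernel

theorem part3_22 : (List.range' 1867 16).all (nodeOK 9 4 MT PT 2 6 tbl) = true := by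
  decide +kernel

theorem part3_23 : (List.range' 1883 16).all (nodeOK 9 4 MT PT 2 6 tbl) = true := by
  decide +kernel

theorem part3_24 : (List.range' 1899 16).all (nodeOK 9 4 MT PT 2 6 tbl) = true := by
  decide +kernel

theorem part3_25 : (List.range' 1915 16).all (nodeOK 9 4 MT PT 2 6 tbl) = true := by
  decide +kernel

theorem part3_26 : (List.range' 1931 16).all (nodeOK 9 4 MT PT 2 6 tbl) = true := by
  decide +kernel

theorem part3_27 : (List.range' 1947 16).all (nodeOK 9 4 MT PT 2 6 tbl) = true := by
  decide +kernel

theorem part3_28 : (List.range' 1963 16).all (nodeOK 9 4 MT PT 2 6 tbl) = true := by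
  decide +kernel

theorem part3_29 : (List.range' 1979 16).all (nodeOK 9 4 MT PT 2 6 tbl) = true := by
  decide +kernel

theorem part3_30 : (List.range' 1995 16).all (nodeOK 9 4 MT PT 2 6 tbl) = true := by
  decide +kernel

theorem part3_31 : (List.range' 2011 9).all (nodeOK 9 4 MT PT 2 6 tbl) = true := by
  decide +kernel

theorem part3 (id : ℕ) (h1 : 1515 ≤ id) (h2 : id < 2020) : nodeOK 9 4 MT PT 2 6 tbl id = true := by
  by_cases h0 : id < 1531
  · have := part3_0
    simp only [List.all_eq_true, List.mem_range'_1] at this
    exact this id (by omega)
  by_cases h1 : id < 1547
  · have := part3_1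
    simp only [List.all_eq_true, List.mem_range'_1] at this
    exact this id (by omega)
  by_cases h2 : id < 1563
  · have := part3_2
    simp only [List.all_eq_true, List.mem_range'_1] at this
    exact this id (by omega)
  by_cases h3 : id < 1579
  · have := part3_3
    simp only [List.all_eq_true, List.mem_range'_1] at this
    exact this id (by omega)
  by_cases h4 : id < 1595
  · have := part3_4
    simp only [List.all_eq_true, List.mem_range'_1] at this
    exact this id (by omega)
  by_cases h5 : id < 1611
  · have := part3_5
    simp only [List.all_eq_true, List.mem_range'_1] at this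
    exact this id (by omega)
  by_cases h6 : id < 1627
  · have := part3_6
    simp only [List.all_eq_true, List.mem_range'_1] at this
    exact this id (by omega)
  by_cases h7 : id < 1643
  · have := part3_7
    simp only [List.all_eq_true, List.mem_range'_1] at this
    exact this id (by omega)
  by_cases h8 : id < 1659
  · have := part3_8
    simp only [List.all_eq_true, List.mem_range'_1] at this
    exact this id (by omega)
  by_cases h9 : id < 1675
  · have := part3_9
    simp only [List.all_eq_true, List.mem_range'_1] at this
    exact this id (by omega)
  by_cases h10 : id < 1691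
  · have := part3_10
    simp only [List.all_eq_true, List.mem_range'_1] at this
    exact this id (by omega)
  by_cases h11 : id < 1707
  · have := part3_11
    simp only [List.all_eq_true, List.mem_range'_1] at this
    exact this id (by omega)
  by_cases h12 : id < 1723
  · have := part3_12
    simp only [List.all_eq_true, List.mem_range'_1] at this
    exact this id (by omega)
  by_cases h13 : id < 1739
  · have := part3_13
    simp only [List.all_eq_true, List.mem_range'_1] at this
    exact this id (by omega)
  by_cases h14 : id < 1755
  · have := part3_14
    simp only [List.all_eq_true, List.mem_range'_1] at this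
    exact this id (by omega)
  by_cases h15 : id < 1771
  · have := part3_15
    simp only [List.all_eq_true, List.mem_range'_1] at this
    exact this id (by omega)
  by_cases h16 : id < 1787
  · have := part3_16
    simp only [List.all_eq_true, List.mem_range'_1] at this
    exact this id (by omega)
  by_cases h17 : id < 1803
  · have := part3_17
    simp only [List.all_eq_true, List.mem_range'_1] at this
    exact this id (by omega)
  by_cases h18 : id < 1819
  · have := part3_18
    simp only [List.all_eq_true, List.mem_range'_1] at this
    exact this id (by omega)
  by_cases h19 : id < 1835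
  · have := part3_19
    simp only [List.all_eq_true, List.mem_range'_1] at this
    exact this id (by omega)
  by_cases h20 : id < 1851
  · have := part3_20
    simp only [List.all_eq_true, List.mem_range'_1] at this
    exact this id (by omega)
  by_cases h21 : id < 1867
  · have := part3_21
    simp only [List.all_eq_true, List.mem_range'_1] at this
    exact this id (by omega)
  by_cases h22 : id < 1883
  · have := part3_22
    simp only [List.all_eq_true, List.mem_range'_1] at this
    exact this id (by omega)
  by_cases h23 : id < 1899
  · have := part3_23
    simp only [List.all_eq_true, List.mem_range'_1] at this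
    exact this id (by omega)
  by_cases h24 : id < 1915
  · have := part3_24
    simp only [List.all_eq_true, List.mem_range'_1] at this
    exact this id (by omega)
  by_cases h25 : id < 1931
  · have := part3_25
    simp only [List.all_eq_true, List.mem_range'_1] at this
    exact this id (by omega)
  by_cases h26 : id < 1947
  · have := part3_26
    simp only [List.all_eq_true, List.mem_range'_1] at this
    exact this id (by omega)
  by_cases h27 : id < 1963
  · have := part3_27
    simp only [List.all_eq_true, List.mem_range'_1] at this
    exact this id (by omega)
  by_cases h28 : id < 1979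
  · have := part3_28
    simp only [List.all_eq_true, List.mem_range'_1] at this
    exact this id (by omega)
  by_cases h29 : id < 1995
  · have := part3_29
    simp only [List.all_eq_true, List.mem_range'_1] at this
    exact this id (by omega)
  by_cases h30 : id < 2011
  · have := part3_30
    simp only [List.all_eq_true, List.mem_range'_1] at this
    exact this id (by omega)
  by_cases h31 : id < 2020
  · have := part3_31
    simp only [List.all_eq_true, List.mem_range'_1] at this
    exact this id (by omega)
  omega

end Vale.Agent.P045.R4N2
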