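import Vale.Agent.P045.R4N2Data

/-! Kernel check of a range of certificate nodes. -/

namespace Vale.Agent.P045.R4N2

open Vale.Agent.P045

theorem part4_0 : (List.range' 2020 16).all (nodeOK 9 4 MT PT 2 6 tbl) = true := by
  decide +kernel

theorem part4_1 : (List.range' 2036 16).all (nodeOK 9 4 MT PT 2 6 tbl) = true := by
  decide +kernel

theorem part4_2 : (List.range' 2052 16).all (nodeOK 9 4 MT PT 2 6 tbl) = true := by
  decide +kernel

theorem part4_3 : (List.range' 2068 16).all (nodeOK 9 4 MT PT 2 6 tbl) = true := by
  decide +kernel

theorem part4_4 : (List.range' 2084 16).all (nodeOK 9 4 MT PT 2 6 tbl) = true := by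
  decide +kernel

theorem part4_5 : (List.range' 2100 16).all (nodeOK 9 4 MT PT 2 6 tbl) = true := by
  decide +kernel

theorem part4_6 : (List.range' 2116 16).all (nodeOK 9 4 MT PT 2 6 tbl) = true := by
  decide +kernel

theorem part4_7 : (List.range' 2132 16).all (nodeOK 9 4 MT PT 2 6 tbl) = true := by
  decide +kernel

theorem part4_8 : (List.range' 2148 16).all (nodeOK 9 4 MT PT 2 6 tbl) = true := by
  decide +kernel

theorem part4_9 : (List.range' 2164 16).all (nodeOK 9 4 MT PT 2 6 tbl) = true := by
  decide +kernel

theorem part4_10 : (List.range' 2180 16).all (nodeOK 9 4 MT PT 2 6 tbl) = true := by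
  decide +kernel

theorem part4_11 : (List.range' 2196 16).all (nodeOK 9 4 MT PT 2 6 tbl) = true := by
  decide +kernel

theorem part4_12 : (List.range' 2212 16).all (nodeOK 9 4 MT PT 2 6 tbl) = true := by
  decide +kernel

theorem part4_13 : (List.range' 2228 16).all (nodeOK 9 4 MT PT 2 6 tbl) = true := by
  decide +kernel

theorem part4_14 : (List.range' 2244 16).all (nodeOK 9 4 MT PT 2 6 tbl) = true := by
  decide +kernel

theorem part4_15 : (List.range' 2260 16).all (nodeOK 9 4 MT PT 2 6 tbl) = true := by
  decide +kernel

theorem part4_16 : (List.range' 2276 16).all (nodeOK 9 4 MT PT 2 6 tbl) = true := by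
  decide +kernel

theorem part4_17 : (List.range' 2292 16).all (nodeOK 9 4 MT PT 2 6 tbl) = true := by
  decide +kernel

theorem part4_18 : (List.range' 2308 16).all (nodeOK 9 4 MT PT 2 6 tbl) = true := by
  decide +kernel

theorem part4_19 : (List.range' 2324 16).all (nodeOK 9 4 MT PT 2 6 tbl) = true := by
  decide +kernel

theorem part4_20 : (List.range' 2340 16).all (nodeOK 9 4 MT PT 2 6 tbl) = true := by
  decide +kernel

theorem part4_21 : (List.range' 2356 16).all (nodeOK 9 4 MT PT 2 6 tbl) = true := by
  decide +kernel

theorem part4_22 : (List.range' 2372 16).all (nodeOK 9 4 MT PT 2 6 tbl) = true := by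
  decide +kernel

theorem part4_23 : (List.range' 2388 16).all (nodeOK 9 4 MT PT 2 6 tbl) = true := by
  decide +kernel

theorem part4_24 : (List.range' 2404 16).all (nodeOK 9 4 MT PT 2 6 tbl) = true := by
  decide +kernel

theorem part4_25 : (List.range' 2420 16).all (nodeOK 9 4 MT PT 2 6 tbl) = true := by
  decide +kernel

theorem part4_26 : (List.range' 2436 16).all (nodeOK 9 4 MT PT 2 6 tbl) = true := by
  decide +kernel

theorem part4_27 : (List.range' 2452 16).all (nodeOK 9 4 MT PT 2 6 tbl) = true := by
  decide +kernel

theorem part4_28 : (List.range' 2468 16).all (nodeOK 9 4 MT PT 2 6 tbl) = true := by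
  decide +kernel

theorem part4_29 : (List.range' 2484 16).all (nodeOK 9 4 MT PT 2 6 tbl) = true := by
  decide +kernel

theorem part4_30 : (List.range' 2500 16).all (nodeOK 9 4 MT PT 2 6 tbl) = true := by
  decide +kernel

theorem part4_31 : (List.range' 2516 9).all (nodeOK 9 4 MT PT 2 6 tbl) = true := by
  decide +kernel

theorem part4 (id : ℕ) (h1 : 2020 ≤ id) (h2 : id < 2525) : nodeOK 9 4 MT PT 2 6 tbl id = true := by
  by_cases h0 : id < 2036
  · have := part4_0
    simp only [List.all_eq_true, List.mem_range'_1] at this
    exact this id (by omega)
  by_cases h1 : id < 2052
  · have := part4_1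
    simp only [List.all_eq_true, List.mem_range'_1] at this
    exact this id (by omega)
  by_cases h2 : id < 2068
  · have := part4_2
    simp only [List.all_eq_true, List.mem_range'_1] at this
    exact this id (by omega)
  by_cases h3 : id < 2084
  · have := part4_3
    simp only [List.all_eq_true, List.mem_range'_1] at this
    exact this id (by omega)
  by_cases h4 : id < 2100
  · have := part4_4
    simp only [List.all_eq_true, List.mem_range'_1] at this
    exact this id (by omega)
  by_cases h5 : id < 2116
  · have := part4_5
    simp only [List.all_eq_true, List.mem_range'_1] at this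
    exact this id (by omega)
  by_cases h6 : id < 2132
  · have := part4_6
    simp only [List.all_eq_true, List.mem_range'_1] at this
    exact this id (by omega)
  by_cases h7 : id < 2148
  · have := part4_7
    simp only [List.all_eq_true, List.mem_range'_1] at this
    exact this id (by omega)
  by_cases h8 : id < 2164
  · have := part4_8
    simp only [List.all_eq_true, List.mem_range'_1] at this
    exact this id (by omega)
  by_cases h9 : id < 2180
  · have := part4_9
    simp only [List.all_eq_true, List.mem_range'_1] at this
    exact this id (by omega)
  by_cases h10 : id < 2196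
  · have := part4_10
    simp only [List.all_eq_true, List.mem_range'_1] at this
    exact this id (by omega)
  by_cases h11 : id < 2212
  · have := part4_11
    simp only [List.all_eq_true, List.mem_range'_1] at this
    exact this id (by omega)
  by_cases h12 : id < 2228
  · have := part4_12
    simp only [List.all_eq_true, List.mem_range'_1] at this
    exact this id (by omega)
  by_cases h13 : id < 2244
  · have := part4_13
    simp only [List.all_eq_true, List.mem_range'_1] at this
    exact this id (by omega)
  by_cases h14 : id < 2260
  · have := part4_14
    simp only [List.all_eq_true, List.mem_range'_1] at this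
    exact this id (by omega)
  by_cases h15 : id < 2276
  · have := part4_15
    simp only [List.all_eq_true, List.mem_range'_1] at this
    exact this id (by omega)
  by_cases h16 : id < 2292
  · have := part4_16
    simp only [List.all_eq_true, List.mem_range'_1] at this
    exact this id (by omega)
  by_cases h17 : id < 2308
  · have := part4_17
    simp only [List.all_eq_true, List.mem_range'_1] at this
    exact this id (by omega)
  by_cases h18 : id < 2324
  · have := part4_18
    simp only [List.all_eq_true, List.mem_range'_1] at this
    exact this id (by omega)
  by_cases h19 : id < 2340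
  · have := part4_19
    simp only [List.all_eq_true, List.mem_range'_1] at this
    exact this id (by omega)
  by_cases h20 : id < 2356
  · have := part4_20
    simp only [List.all_eq_true, List.mem_range'_1] at this
    exact this id (by omega)
  by_cases h21 : id < 2372
  · have := part4_21
    simp only [List.all_eq_true, List.mem_range'_1] at this
    exact this id (by omega)
  by_cases h22 : id < 2388
  · have := part4_22
    simp only [List.all_eq_true, List.mem_range'_1] at this
    exact this id (by omega)
  by_cases h23 : id < 2404
  · have := part4_23
    simp only [List.all_eq_true, List.mem_range'_1] at this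
    exact this id (by omega)
  by_cases h24 : id < 2420
  · have := part4_24
    simp only [List.all_eq_true, List.mem_range'_1] at this
    exact this id (by omega)
  by_cases h25 : id < 2436
  · have := part4_25
    simp only [List.all_eq_true, List.mem_range'_1] at this
    exact this id (by omega)
  by_cases h26 : id < 2452
  · have := part4_26
    simp only [List.all_eq_true, List.mem_range'_1] at this
    exact this id (by omega)
  by_cases h27 : id < 2468
  · have := part4_27
    simp only [List.all_eq_true, List.mem_range'_1] at this
    exact this id (by omega)
  by_cases h28 : id < 2484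
  · have := part4_28
    simp only [List.all_eq_true, List.mem_range'_1] at this
    exact this id (by omega)
  by_cases h29 : id < 2500
  · have := part4_29
    simp only [List.all_eq_true, List.mem_range'_1] at this
    exact this id (by omega)
  by_cases h30 : id < 2516
  · have := part4_30
    simp only [List.all_eq_true, List.mem_range'_1] at this
    exact this id (by omega)
  by_cases h31 : id < 2525
  · have := part4_31
    simp only [List.all_eq_true, List.mem_range'_1] at this
    exact this id (by omega)
  omega

end Vale.Agent.P045.R4N2
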