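import Vale.Agent.P045.R4N2C0
import Vale.Agent.P045.R4N2C1
import Vale.Agent.P045.R4N2C2
import Vale.Agent.P045.R4N2C3
import Vale.Agent.P045.R4N2C4
import Vale.Agent.P045.R4N2C5
import Vale.Agent.P045.R4N2C6
import Vale.Agent.P045.R4N2C7

/-! Kernel check of the certificate. -/

namespace Vale.Agent.P045.R4N2

open Vale.Agent.P045

theorem mtab_ok : (List.range 4).all (fun i => (List.range 9).all fun l =>
    (List.range (9 ^ 4)).all fun t => (MT i l).testBit t == decide (co 9 t i = l)) = true := by
  decide +kernel

theorem ptab_ok : (List.range 4).all (fun i => (List.range 9).all fun l =>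
    (List.range (9 ^ 4)).all fun t => (PT i l).testBit t == decide (co 9 t i ≤ l)) = true := by
  decide +kernel

theorem hM : ∀ i < 4, ∀ l < 9, ∀ t < 9 ^ 4, (MT i l).testBit t = decide (co 9 t i = l) := by
  intro i hi l hl t ht
  have := mtab_ok
  simp only [List.all_eq_true, List.mem_range, beq_iff_eq] at this
  exact this i hi l hl t ht

theorem hP : ∀ i < 4, ∀ l < 9, ∀ t < 9 ^ 4, (PT i l).testBit t = decide (co 9 t i ≤ l) := by
  intro i hi l hl t ht
  have := ptab_ok
  simp only [List.all_eq_true, List.mem_range, beq_iff_eq] at this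
  exact this i hi l hl t ht

theorem all_ok (id : ℕ) (hid : id < 4036) : nodeOK 9 4 MT PT 2 6 tbl id = true := by
  by_cases h0 : id < 505
  · exact part0 id (by omega) (by omega)
  by_cases h1 : id < 1010
  · exact part1 id (by omega) (by omega)
  by_cases h2 : id < 1515
  · exact part2 id (by omega) (by omega)
  by_cases h3 : id < 2020
  · exact part3 id (by omega) (by omega)
  by_cases h4 : id < 2525
  · exact part4 id (by omega) (by omega)
  by_cases h5 : id < 3030
  · exact part5 id (by omega) (by omega)
  by_cases h6 : id < 3535
  · exact part6 id (by omega) (by omega)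
  by_cases h7 : id < 4036
  · exact part7 id (by omega) (by omega)
  omega

theorem closed_root {α : Type*} [DecidableEq α] : Closed α 9 4 2 6 [0] := by
  have hroot : (tbl 4035).F = [0] := by decide +kernel
  have := closed_of_nodeOK (α := α) (by norm_num) (by norm_num) hM hP all_ok 4035 (by norm_num)
  rwa [hroot] at this

end Vale.Agent.P045.R4N2
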